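import Mathlib

/-!
# Separating level sets of height functions with unit steps

`G` is a graph on `V` with four sides `L`, `R`, `B`, `U`; `Cn adj S X Y` : there is a chain from `X` to
`Y` inside `S`. `Cross` : a chain from `L` to `R` and a chain from `B` to `U` have a common vertex.
For a height function `h` with unit steps: `Bad h X Y` (there are `k` and chains from `X` to `Y` inside
`{k ≤ h}` and inside `{h < k}`) is the only obstruction to the existence of a level set which
separates `X` from `Y` (`exists_sep`), and `Bad h L R`, `Bad h B U` exclude each other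
(`not_bad_bad`).
-/

namespace Vale.Agent.P159.R2.H729

open Set

variable {V : Type*}

/-- There is a chain of `adj` from `X` to `Y` inside `S`. -/
def Cn (adj : V → V → Prop) (S X Y : Set V) : Prop :=
  ∃ x ∈ S ∩ X, ∃ y ∈ S ∩ Y, Relation.ReflTransGen (fun a b => adj a b ∧ a ∈ S ∧ b ∈ S) x y

variable {adj : V → V → Prop} {S S' X Y L R B U : Set V}

theorem Cn.mono (h : Cn adj S X Y) (hS : S ⊆ S') : Cn adj S' X Y := by
  obtain ⟨x, hx, y, hy, h1⟩ := h
  exact ⟨x, ⟨hS hx.1, hx.2⟩, y, ⟨hS hy.1, hy.2⟩,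
    Relation.ReflTransGen.mono (p := fun a b => adj a b ∧ a ∈ S' ∧ b ∈ S')
      (fun _ _ hab => ⟨hab.1, hS hab.2.1, hS hab.2.2⟩) x y h1⟩

/-- Crossing chains share a vertex. -/
def Cross (adj : V → V → Prop) (L R B U : Set V) : Prop :=
  ∀ S S', Cn adj S L R → Cn adj S' B U → (S ∩ S').Nonempty

theorem Cross.symm (h : Cross adj L R B U) : Cross adj B U L R := by
  intro S S' h1 h2
  rw [inter_comm]
  exact h S' S h2 h1

/-- The obstruction to a separating level set. -/
def Bad (adj : V → V → Prop) (X Y : Set V) (h : V → ℤ) : Prop :=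
  ∃ k : ℤ, Cn adj {v | k ≤ h v} X Y ∧ Cn adj {v | h v < k} X Y

/-- **The two obstructions exclude each other.** -/
theorem not_bad_bad (hc : Cross adj L R B U) {h : V → ℤ} (h1 : Bad adj L R h)
    (h2 : Bad adj B U h) : False := by
  obtain ⟨k, a1, a2⟩ := h1
  obtain ⟨l, b1, b2⟩ := h2
  obtain ⟨x, hx1, hx2⟩ := hc _ _ a1 b2
  obtain ⟨y, hy1, hy2⟩ := hc _ _ a2 b1
  simp only [mem_ofPred_eq] at hx1 hx2 hy1 hy2
  omega

/-- Heights with unit steps which avoid `k` along a chain stay on one side of `k`. -/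
theorem side {h : V → ℤ} (hu : ∀ a b, adj a b → |h a - h b| ≤ 1) {k : ℤ}
    (hC : Cn adj {v | h v ≠ k} X Y) : Cn adj {v | k < h v} X Y ∨ Cn adj {v | h v < k} X Y := by
  obtain ⟨x, hx, y, hy, h1⟩ := hC
  have key : ∀ z, Relation.ReflTransGen (fun a b => adj a b ∧ a ∈ {v | h v ≠ k} ∧
      b ∈ {v | h v ≠ k}) x z →
      (k < h x → k < h z ∧ Relation.ReflTransGen (fun a b => adj a b ∧ a ∈ {v | k < h v} ∧
        b ∈ {v | k < h v}) x z) ∧
      (h x < k → h z < k ∧ Relation.ReflTransGen (fun a b => adj a b ∧ a ∈ {v | h v < k} ∧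
        b ∈ {v | h v < k}) x z) := by
    intro z hz
    induction hz with
    | refl => exact ⟨fun h => ⟨h, .refl⟩, fun h => ⟨h, .refl⟩⟩
    | @tail a b _ hab ih =>
      obtain ⟨e1, e2, e3⟩ := hab
      have e4 := abs_le.1 (hu a b e1)
      simp only [mem_ofPred_eq] at e2 e3
      constructor
      · intro h5
        obtain ⟨h6, h7⟩ := ih.1 h5
        have h8 : k < h b := by omega
        exact ⟨h8, h7.tail ⟨e1, h6, h8⟩⟩
      · intro h5
        obtain ⟨h6, h7⟩ := ih.2 h5
        have h8 : h b < k := by omega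
        exact ⟨h8, h7.tail ⟨e1, h6, h8⟩⟩
  have h2 := key y h1
  have h3 : h x ≠ k := hx.1
  rcases lt_or_gt_of_ne h3 with h4 | h4
  · right
    obtain ⟨h5, h6⟩ := h2.2 h4
    exact ⟨x, ⟨h4, hx.2⟩, y, ⟨h5, hy.2⟩, h6⟩
  · left
    obtain ⟨h5, h6⟩ := h2.1 h4
    exact ⟨x, ⟨h4, hx.2⟩, y, ⟨h5, hy.2⟩, h6⟩

/-- **Existence of a separating level set.** -/
theorem exists_sep [Finite V] {h : V → ℤ} (hu : ∀ a b, adj a b → |h a - h b| ≤ 1)
    (hne : Cn adj univ X Y) (hb : ¬ Bad adj X Y h) :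
    ∃ k : ℤ, (∃ v, h v = k) ∧ ¬ Cn adj {v | h v ≠ k} X Y := by
  classical
  by_contra hcon
  push Not at hcon
  -- every value separates nothing
  have hall : ∀ k, Cn adj {v | h v ≠ k} X Y := by
    intro k
    by_cases hk : ∃ v, h v = k
    · exact hcon k hk
    · refine hne.mono fun v _ => ?_
      exact fun hv => hk ⟨v, hv⟩
  -- upper chains exist for all small levels, and fail for large levels
  obtain ⟨m, hm⟩ : ∃ m : ℤ, ∀ v, m ≤ h v := by
    obtain ⟨x, -⟩ := hne
    have : Nonempty V := ⟨x⟩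
    obtain ⟨v, hv⟩ := Finite.exists_min h
    exact ⟨h v, hv⟩
  obtain ⟨M, hM⟩ : ∃ M : ℤ, ∀ v, h v ≤ M := by
    obtain ⟨x, -⟩ := hne
    have : Nonempty V := ⟨x⟩
    obtain ⟨v, hv⟩ := Finite.exists_max h
    exact ⟨h v, hv⟩
  have hup : ∀ n : ℕ, Cn adj {v | m + n ≤ h v} X Y := by
    intro n
    induction n with
    | zero =>
      refine hne.mono fun v _ => ?_
      simpa using hm v
    | succ n ih =>
      rcases side hu (hall (m + n)) with h1 | h1
      · refine h1.mono fun v hv => ?_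
        simp only [mem_ofPred_eq, Nat.cast_add, Nat.cast_one] at hv ⊢
        omega
      · exact absurd ⟨m + n, ih, h1⟩ hb
  obtain ⟨x, hx, -⟩ := hup (M - m + 1).toNat
  have h1 : m + ((M - m + 1).toNat : ℤ) ≤ h x := hx.1
  have h2 := hM x
  have h3 := Int.self_le_toNat (M - m + 1)
  omega

end Vale.Agent.P159.R2.H729
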