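import Vale.Agent.P159.R2.H729.Cut
import Vale.Agent.P198.Hex.Board

/-!
# Crossing chains in the square grid and in its subdivisions

`adj4` : nearest neighbours on the board `Fin m × Fin n`. `cross4` : a left-right chain and a
bottom-top chain share a cell. `Sub` : a subdivision of a graph (every new vertex lies on one edge of
the base graph); `Sub.cross` : the crossing property passes to subdivisions.
-/

namespace Vale.Agent.P159.R2.H729

open Set

/-- Nearest neighbours on the board. -/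
def adj4 {m n : ℕ} (c c' : Fin m × Fin n) : Prop :=
  |((c.1 : ℕ) : ℤ) - (c'.1 : ℕ)| + |((c.2 : ℕ) : ℤ) - (c'.2 : ℕ)| = 1

theorem hadj_of_adj4 {m n : ℕ} {c c' : Fin m × Fin n} (h : adj4 c c') :
    P198.PlanarTop.hadj c c' := by
  unfold adj4 at h
  refine ⟨?_, ?_, ?_, ?_⟩
  · rintro rfl
    simp at h
  · have := abs_nonneg (((c.2 : ℕ) : ℤ) - (c'.2 : ℕ))
    omega
  · have := abs_nonneg (((c.1 : ℕ) : ℤ) - (c'.1 : ℕ))
    omega
  · exact (abs_add_le _ _).trans h.le

theorem conn_of_cn {m n : ℕ} {A X Y : Set (Fin m × Fin n)} (h : Cn adj4 A X Y) :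
    P198.PlanarTop.Conn P198.PlanarTop.hadj A X Y := by
  obtain ⟨x, hx, y, hy, h1⟩ := h
  exact ⟨x, hx, y, hy, Relation.ReflTransGen.mono
    (p := fun a b => P198.PlanarTop.hadj a b ∧ b ∈ A)
    (fun _ _ hab => ⟨hadj_of_adj4 hab.1, hab.2.2⟩) x y h1⟩

/-- **Crossing chains of the square grid share a vertex.** -/
theorem cross4 (m n : ℕ) : Cross (adj4 (m := m) (n := n)) P198.PlanarTop.lft P198.PlanarTop.rgt
    P198.PlanarTop.bot P198.PlanarTop.top' := by
  intro S S' h1 h2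
  rw [inter_comm]
  exact P198.PlanarTop.cross_board (conn_of_cn h2) (conn_of_cn h1)

/-- `W` with the adjacency `adj'` is a subdivision of `V` with the adjacency `adj`: `ι` embeds the
old vertices, a new vertex `w` lies on the edge from `a w` to `b w`, chains of new vertices stay on one
edge and leave it only at its end points. -/
structure Sub {V W : Type*} (adj : V → V → Prop) (adj' : W → W → Prop) (ι : V → W)
    (a b : W → V) : Prop where
  inj : Function.Injective ι
  edge : ∀ w, w ∉ range ι → adj (a w) (b w) ∧ adj (b w) (a w)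
  old : ∀ u v, adj' (ι u) (ι v) → adj u v
  new : ∀ w w', w ∉ range ι → w' ∉ range ι → adj' w w' →
    (a w' = a w ∧ b w' = b w) ∨ (a w' = b w ∧ b w' = a w)
  out : ∀ w v, w ∉ range ι → (adj' w (ι v) ∨ adj' (ι v) w) → v = a w ∨ v = b w

variable {V W : Type*} {adj : V → V → Prop} {adj' : W → W → Prop} {ι : V → W} {a b : W → V}

/-- A chain of the subdivision between old vertices gives a chain of old vertices. -/
theorem Sub.cn (h : Sub adj adj' ι a b) {S : Set W} {X Y : Set V}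
    (hc : Cn adj' S (ι '' X) (ι '' Y)) : Cn adj (ι ⁻¹' S) X Y := by
  obtain ⟨_, ⟨hxS, x, hx, rfl⟩, _, ⟨hyS, y, hy, rfl⟩, h1⟩ := hc
  -- the last old vertex
  have key : ∀ z, Relation.ReflTransGen (fun p q => adj' p q ∧ p ∈ S ∧ q ∈ S) (ι x) z →
      ∃ v, Relation.ReflTransGen (fun p q => adj p q ∧ p ∈ ι ⁻¹' S ∧ q ∈ ι ⁻¹' S) x v ∧
        v ∈ ι ⁻¹' S ∧ (z = ι v ∨ (z ∉ range ι ∧ (v = a z ∨ v = b z))) := by
    intro z hz
    induction hz with
    | refl => exact ⟨x, .refl, hxS, Or.inl rfl⟩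
    | @tail p q _ hpq ih =>
      obtain ⟨v, h2, h3, h4⟩ := ih
      obtain ⟨e1, e2, e3⟩ := hpq
      by_cases hq : q ∈ range ι
      · obtain ⟨v', rfl⟩ := hq
        rcases h4 with rfl | ⟨h5, h6⟩
        · exact ⟨v', h2.tail ⟨h.old _ _ e1, h3, e3⟩, e3, Or.inl rfl⟩
        · have h7 := h.out p v' h5 (Or.inl e1)
          have h8 := h.edge p h5
          rcases h6 with rfl | rfl <;> rcases h7 with h7 | h7
          · exact ⟨v', by rw [h7]; exact h2, e3, Or.inl rfl⟩
          · exact ⟨v', h2.tail ⟨by rw [h7]; exact h8.1, h3, e3⟩, e3, Or.inl rfl⟩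
          · exact ⟨v', h2.tail ⟨by rw [h7]; exact h8.2, h3, e3⟩, e3, Or.inl rfl⟩
          · exact ⟨v', by rw [h7]; exact h2, e3, Or.inl rfl⟩
      · refine ⟨v, h2, h3, Or.inr ⟨hq, ?_⟩⟩
        rcases h4 with rfl | ⟨h5, h6⟩
        · exact h.out q v hq (Or.inr e1)
        · rcases h.new p q h5 hq e1 with ⟨h7, h8⟩ | ⟨h7, h8⟩
          · rw [h7, h8]; exact h6
          · rw [h7, h8]; exact h6.symm
  obtain ⟨v, h2, h3, h4⟩ := key _ h1
  rcases h4 with h4 | ⟨h4, -⟩
  · have h5 := h.inj h4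
    exact ⟨x, ⟨hxS, hx⟩, v, ⟨h3, h5 ▸ hy⟩, h2⟩
  · exact absurd ⟨y, rfl⟩ h4

/-- **The crossing property of a subdivision.** -/
theorem Sub.cross (h : Sub adj adj' ι a b) {L R B U : Set V} (hc : Cross adj L R B U) :
    Cross adj' (ι '' L) (ι '' R) (ι '' B) (ι '' U) := by
  intro S S' h1 h2
  obtain ⟨v, hv1, hv2⟩ := hc _ _ (h.cn h1) (h.cn h2)
  exact ⟨ι v, hv1, hv2⟩

end Vale.Agent.P159.R2.H729
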