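import Vale.Agent.P159.R2.H729.Half
import Vale.Agent.P159.R2.H729.Grid

/-!
# Halving the edges of a graph of integer heights

Every edge `e` is replaced by two edges with the coupling `J e / 2` and a new vertex. Partition functions
of heights with weights depending on the old vertices do not change (`tsum_dbl`), connectedness, the
crossing property and automorphisms are inherited, and `∑ J ^ 2` is divided by two.
-/

open Filter Topology

namespace Vale.Agent.P159.R2.H729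

open Vale.Agent.P159 Vale.Agent.P159.H353 Vale.Agent.P159.T1.H934

section Dbl

variable {V E : Type}

/-- sources of the half edges -/
def s2 (s : E → V) (x : E × Bool) : V ⊕ E := if x.2 then Sum.inr x.1 else Sum.inl (s x.1)

/-- targets of the half edges -/
def t2 (t : E → V) (x : E × Bool) : V ⊕ E := if x.2 then Sum.inl (t x.1) else Sum.inr x.1

/-- couplings of the half edges -/
noncomputable def J2 (J : E → ℝ) (x : E × Bool) : ℝ := J x.1 / 2

variable {s t : E → V}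

theorem J2_nonneg {J : E → ℝ} (hJ : ∀ e, 0 ≤ J e) (x : E × Bool) : 0 ≤ J2 J x := by
  have := hJ x.1
  unfold J2
  linarith

theorem sum_J2_sq [Fintype E] (J : E → ℝ) : ∑ x, J2 J x ^ 2 = (∑ e, J e ^ 2) / 2 := by
  rw [Fintype.sum_prod_type, Finset.sum_div]
  refine Finset.sum_congr rfl fun e _ => ?_
  simp only [J2, Fintype.sum_bool]
  ring

theorem adj_s (e : E) : adjG (s2 s) (t2 t) (Sum.inl (s e)) (Sum.inr e) :=
  ⟨(e, false), Or.inl ⟨rfl, rfl⟩⟩

theorem adj_t (e : E) : adjG (s2 s) (t2 t) (Sum.inr e) (Sum.inl (t e)) :=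
  ⟨(e, true), Or.inl ⟨rfl, rfl⟩⟩

theorem adjG_symm {V E : Type} {s t : E → V} {a b : V} (h : adjG s t a b) : adjG s t b a := by
  obtain ⟨e, he⟩ := h
  exact ⟨e, he.symm⟩

theorem conn2 (hc : Conn s t) : Conn (s2 s) (t2 t) := by
  have h1 : ∀ a b : V, Relation.ReflTransGen (adjG (s2 s) (t2 t)) (Sum.inl a) (Sum.inl b) := by
    intro a b
    have h := hc a b
    induction h with
    | refl => exact .refl
    | @tail c d _ hcd ih =>
      obtain ⟨e, ⟨rfl, rfl⟩ | ⟨rfl, rfl⟩⟩ := hcd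
      · exact (ih.tail (adj_s e)).tail (adj_t e)
      · exact (ih.tail (adjG_symm (adj_t e))).tail (adjG_symm (adj_s e))
  rintro (a | e) (b | f)
  · exact h1 a b
  · exact (h1 a (s f)).tail (adj_s f)
  · exact Relation.ReflTransGen.head (adj_t e) (h1 (t e) b)
  · exact Relation.ReflTransGen.head (adj_t e) ((h1 (t e) (s f)).tail (adj_s f))

/-- the half edges form a subdivision -/
theorem sub2 : Sub (adjG s t) (adjG (s2 s) (t2 t)) (Sum.inl : V → V ⊕ E)
    (Sum.elim id s) (Sum.elim id t) where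
  inj := Sum.inl_injective
  edge := by
    rintro (v | e) hw
    · exact absurd ⟨v, rfl⟩ hw
    · exact ⟨⟨e, Or.inl ⟨rfl, rfl⟩⟩, ⟨e, Or.inr ⟨rfl, rfl⟩⟩⟩
  old := by
    rintro u v ⟨⟨e, b⟩, h⟩
    rcases b <;> rcases h with ⟨h1, h2⟩ | ⟨h1, h2⟩ <;> simp [s2, t2] at h1 h2
  new := by
    rintro (w | e) (w' | f) hw hw' h
    · exact absurd ⟨w, rfl⟩ hw
    · exact absurd ⟨w, rfl⟩ hw
    · exact absurd ⟨w', rfl⟩ hw'
    · obtain ⟨⟨g, b⟩, h⟩ := h
      rcases b <;> rcases h with ⟨h1, h2⟩ | ⟨h1, h2⟩ <;> simp [s2, t2] at h1 h2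
  out := by
    rintro (w | e) v hw h
    · exact absurd ⟨w, rfl⟩ hw
    · rcases h with ⟨⟨g, b⟩, h⟩ | ⟨⟨g, b⟩, h⟩ <;> rcases b <;>
        rcases h with ⟨h1, h2⟩ | ⟨h1, h2⟩ <;> simp [s2, t2] at h1 h2 <;> subst_vars <;> simp

theorem cross2 {L R B U : Set V} (h : Cross (adjG s t) L R B U) :
    Cross (adjG (s2 s) (t2 t)) (Sum.inl '' L) (Sum.inl '' R) (Sum.inl '' B) (Sum.inl '' U) :=
  sub2.cross h

end Dbl

section Weight

variable {V E : Type} [Fintype E] {s t : E → V}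

theorem W_dbl (J : E → ℝ) (h : V → ℤ) (g : E → ℤ) :
    W (grd (s2 s) (t2 t)) (J2 J) (Sum.elim h g) =
      ∏ e, wI (J e / 2) (g e - h (s e)) * wI (J e / 2) (h (t e) - g e) := by
  unfold W
  rw [Fintype.prod_prod_type]
  refine Finset.prod_congr rfl fun e _ => ?_
  rw [Fintype.prod_bool, mul_comm]
  rfl

theorem hasSum_dbl {J : E → ℝ} (hJ : ∀ e, 0 ≤ J e) (h : V → ℤ) :
    HasSum (fun g : E → ℤ => W (grd (s2 s) (t2 t)) (J2 J) (Sum.elim h g)) (W (grd s t) J h) := by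
  have hh : ∀ e, 0 ≤ J e / 2 := fun e => by have := hJ e; linarith
  have h1 : ∀ e, HasSum (fun g : ℤ => wI (J e / 2) (g - h (s e)) * wI (J e / 2) (h (t e) - g))
      (wI (J e) (h (t e) - h (s e))) := by
    intro e
    have h2 := T1.H532.wI_conv (hh e) (hh e) (h (t e) - h (s e))
    have h3 := (Equiv.subRight (h (s e))).hasSum_iff.2 h2
    rw [add_halves] at h3
    have e0 : ((fun m => wI (J e / 2) m * wI (J e / 2) (h (t e) - h (s e) - m)) ∘
        Equiv.subRight (h (s e))) =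
        fun g : ℤ => wI (J e / 2) (g - h (s e)) * wI (J e / 2) (h (t e) - g) := by
      funext g
      show wI (J e / 2) (g - h (s e)) * wI (J e / 2) (h (t e) - h (s e) - (g - h (s e))) = _
      congr 2
      ring
    rwa [e0] at h3
  have h4 := T1.H532.prod_real (a := fun e g => wI (J e / 2) (g - h (s e)) *
    wI (J e / 2) (h (t e) - g)) (fun e => (h1 e).summable)
  have e1 : (∏ e, ∑' g, wI (J e / 2) (g - h (s e)) * wI (J e / 2) (h (t e) - g)) =
      W (grd s t) J h := Finset.prod_congr rfl fun e _ => (h1 e).tsum_eq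
  rw [e1] at h4
  simpa only [W_dbl] using h4

/-- **The sum over the heights of the new vertices.** -/
theorem tsum_dbl {J : E → ℝ} (hJ : ∀ e, 0 ≤ J e) {X : Type} (π : X → V → ℤ) (F : X → ℝ)
    (hF : ∀ x, 0 ≤ F x) :
    ∑' p : X × (E → ℤ), F p.1 * W (grd (s2 s) (t2 t)) (J2 J) (Sum.elim (π p.1) p.2) =
      ∑' x, F x * W (grd s t) J (π x) := by
  set f : X × (E → ℤ) → ℝ :=
    fun p => F p.1 * W (grd (s2 s) (t2 t)) (J2 J) (Sum.elim (π p.1) p.2) with hf
  have h0 : ∀ p, 0 ≤ f p := fun p => mul_nonneg (hF _) (W_nonneg (J2_nonneg hJ) _)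
  have h1 : ∀ x, HasSum (fun g => f (x, g)) (F x * W (grd s t) J (π x)) :=
    fun x => (hasSum_dbl hJ (π x)).mul_left (F x)
  have h2 : ∀ x, ∑' g, f (x, g) = F x * W (grd s t) J (π x) := fun x => (h1 x).tsum_eq
  by_cases hs : Summable fun x => F x * W (grd s t) J (π x)
  · have h3 : Summable f := by
      rw [summable_prod_of_nonneg h0]
      exact ⟨fun x => (h1 x).summable, hs.congr fun x => (h2 x).symm⟩
    rw [h3.tsum_prod]
    exact tsum_congr h2
  · rw [tsum_eq_zero_of_not_summable hs, tsum_eq_zero_of_not_summable]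
    intro h3
    exact hs (h3.prod.congr h2)

end Weight

section Z

variable {V E A B : Type} [Fintype E] [Fintype A] [Fintype B] {s t : E → V} {l : A → V} {r : B → V}

/-- heights without outer faces -/
noncomputable def Z0 (s t : E → V) (J : E → ℝ) (v0 : V) : ℝ :=
  ∑' h : {h : V → ℤ // h v0 = 0}, W (grd s t) J h.1

/-- heights with one outer face -/
noncomputable def Z1 (s t : E → V) (J : E → ℝ) (l : A → V) (a : A → ℝ) : ℝ :=
  ∑' h : V → ℤ, W (grd s t) J h * Psi (vals l) a h 0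

/-- heights with two outer faces -/
noncomputable def Z2 (s t : E → V) (J : E → ℝ) (l : A → V) (a : A → ℝ) (r : B → V) (b : B → ℝ) :
    ℝ :=
  ∑' x : (V → ℤ) × ℤ, W (grd s t) J x.1 * Psi (vals l) a x.1 0 * Psi (vals r) b x.1 x.2

/-- heights on the halved graph with an anchor -/
def ea (V E : Type) (v0 : V) :
    {h : V ⊕ E → ℤ // h (Sum.inl v0) = 0} ≃ {h : V → ℤ // h v0 = 0} × (E → ℤ) where
  toFun h := (⟨fun v => h.1 (Sum.inl v), h.2⟩, fun e => h.1 (Sum.inr e))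
  invFun p := ⟨Sum.elim p.1.1 p.2, p.1.2⟩
  left_inv h := by
    apply Subtype.ext
    funext x
    rcases x with v | e <;> rfl
  right_inv p := rfl

/-- heights on the halved graph -/
def eb (V E : Type) : (V ⊕ E → ℤ) ≃ (V → ℤ) × (E → ℤ) where
  toFun h := (fun v => h (Sum.inl v), fun e => h (Sum.inr e))
  invFun p := Sum.elim p.1 p.2
  left_inv h := by
    funext x
    rcases x with v | e <;> rfl
  right_inv p := rfl

/-- heights on the halved graph with an outer face -/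
def ec (V E : Type) : (V ⊕ E → ℤ) × ℤ ≃ ((V → ℤ) × ℤ) × (E → ℤ) where
  toFun h := ((fun v => h.1 (Sum.inl v), h.2), fun e => h.1 (Sum.inr e))
  invFun p := (Sum.elim p.1.1 p.2, p.1.2)
  left_inv h := by
    refine Prod.ext ?_ rfl
    funext x
    rcases x with v | e <;> rfl
  right_inv p := rfl

omit [Fintype A] [Fintype B] in
theorem Z0_dbl {J : E → ℝ} (hJ : ∀ e, 0 ≤ J e) (v0 : V) :
    Z0 (s2 s) (t2 t) (J2 J) (Sum.inl v0) = Z0 s t J v0 := by
  have h := tsum_dbl (s := s) (t := t) hJ (X := {h : V → ℤ // h v0 = 0}) (fun x => x.1)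
    (fun _ => 1) (fun _ => zero_le_one)
  simp only [one_mul] at h
  unfold Z0
  rw [← h, ← (ea V E v0).symm.tsum_eq]
  rfl

omit [Fintype B] in
theorem Z1_dbl {J : E → ℝ} (hJ : ∀ e, 0 ≤ J e) {a : A → ℝ} (ha : ∀ y, 0 ≤ a y) :
    Z1 (s2 s) (t2 t) (J2 J) (fun y => (Sum.inl (l y) : V ⊕ E)) a = Z1 s t J l a := by
  have h := tsum_dbl (s := s) (t := t) hJ (X := V → ℤ) (fun x => x)
    (fun x => Psi (vals l) a x 0) (fun _ => Psi_nonneg ha _ _)
  unfold Z1
  rw [← (eb V E).symm.tsum_eq]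
  simp only [mul_comm (Psi _ _ _ _)] at h
  exact h

theorem Z2_dbl {J : E → ℝ} (hJ : ∀ e, 0 ≤ J e) {a : A → ℝ} (ha : ∀ y, 0 ≤ a y)
    {b : B → ℝ} (hb : ∀ y, 0 ≤ b y) :
    Z2 (s2 s) (t2 t) (J2 J) (fun y => (Sum.inl (l y) : V ⊕ E)) a (fun y => Sum.inl (r y)) b =
      Z2 s t J l a r b := by
  have h := tsum_dbl (s := s) (t := t) hJ (X := (V → ℤ) × ℤ) (fun x => x.1)
    (fun x => Psi (vals l) a x.1 0 * Psi (vals r) b x.1 x.2)
    (fun _ => mul_nonneg (Psi_nonneg ha _ _) (Psi_nonneg hb _ _))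
  have e1 : ∀ x : (V → ℤ) × ℤ, Psi (vals l) a x.1 0 * Psi (vals r) b x.1 x.2 *
      W (grd s t) J x.1 = W (grd s t) J x.1 * Psi (vals l) a x.1 0 * Psi (vals r) b x.1 x.2 :=
    fun x => by ring
  unfold Z2
  rw [tsum_congr e1] at h
  rw [← h, ← (ec V E).symm.tsum_eq]
  refine tsum_congr fun p => ?_
  show W (grd (s2 s) (t2 t)) (J2 J) (Sum.elim p.1.1 p.2) * Psi (vals l) a p.1.1 0 *
    Psi (vals r) b p.1.1 p.1.2 = _
  ring

end Z

section Main

/-- bound with the error of `k` halvings -/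
theorem rho_pow (k : ℕ) : ∀ {V E A B A' B' : Type} [Fintype V] [Fintype E] [Fintype A]
    [Fintype B] {s t : E → V} {l : A → V} {r : B → V} {l' : A' → V} {r' : B' → V}
    (_ : Conn s t) (_ : Nonempty A) (_ : Nonempty B) (_ : Nonempty A') (_ : Nonempty B')
    {J : E → ℝ} {a : A → ℝ} {b : B → ℝ} (_ : ∀ e, 0 ≤ J e) (_ : ∀ y, 0 ≤ a y) (_ : ∀ y, 0 ≤ b y)
    (_ : Cross (adjG s t) (Set.range l) (Set.range r) (Set.range l') (Set.range r'))
    {σ : V ≃ V} {τ : E ≃ E} (_ : ∀ e, s (τ e) = σ (s e) ∧ t (τ e) = σ (t e))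
    (_ : ∀ e, J (τ e) = J e) (_ : ∀ y, σ (l y) ∈ Set.range l') (_ : ∀ y, σ (r y) ∈ Set.range r')
    (v0 : V) (w : A → ℝ) (_ : ∑ y, w y = 1) (η : E → ℝ) (ζ : B → ℝ)
    (_ : ∀ h : V → ℤ, ∑ e, η e * ((h (t e) - h (s e) : ℤ) : ℝ) +
      ∑ y, ζ y * (h (r y) : ℝ) = ∑ y, w y * (h (l y) : ℝ)),
    (1 / 2 - (∑ e, J e ^ 2) / 8 / 2 ^ k) * Z0 s t J v0 * Z2 s t J l a r b ≤
      (1 + 4 * (∑ e, J e * η e ^ 2 + ∑ y, b y * ζ y ^ 2)) * Z1 s t J l a * Z1 s t J r b := by
  induction k with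
  | zero =>
    intro V E A B A' B' _ _ _ _ s t l r l' r' hc hA hB hA' hB' J a b hJ ha hb hX σ τ hτ hJτ hl hr
      v0 w hw η ζ hη
    have h1 := half_le (l := l) (r := r) (l' := l') (r' := r') hc hJ hA hB hA' hB' hX
      (σ := σ) (τ := τ) (fun e => Or.inl (hτ e)) hJτ hl hr v0
    have h2 := rho_le (l := l) (r := r) hc hA hB hJ ha hb v0 h1 w hw (Sum.elim η ζ)
      (by simpa only [Sum.elim_inl, Sum.elim_inr] using hη)
    rw [pow_zero, div_one]
    exact h2
  | succ k ih =>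
    intro V E A B A' B' _ _ _ _ s t l r l' r' hc hA hB hA' hB' J a b hJ ha hb hX σ τ hτ hJτ hl hr
      v0 w hw η ζ hη
    have hr1 : ∀ {C : Type} (f : C → V), Set.range (fun y => (Sum.inl (f y) : V ⊕ E)) =
        Sum.inl '' Set.range f := fun f => Set.range_comp Sum.inl f
    have h := ih (V := V ⊕ E) (E := E × Bool) (A := A) (B := B) (A' := A') (B' := B')
      (s := s2 s) (t := t2 t) (l := fun y => Sum.inl (l y)) (r := fun y => Sum.inl (r y))
      (l' := fun y => Sum.inl (l' y)) (r' := fun y => Sum.inl (r' y))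
      (conn2 hc) hA hB hA' hB' (J := J2 J) (a := a) (b := b) (J2_nonneg hJ) ha hb
      (by rw [hr1, hr1, hr1, hr1]; exact cross2 hX)
      (σ := Equiv.sumCongr σ τ) (τ := Equiv.prodCongr τ (Equiv.refl Bool))
      (by
        rintro ⟨e, c⟩
        obtain ⟨h1, h2⟩ := hτ e
        rcases c with _ | _
        · exact ⟨congrArg Sum.inl h1, rfl⟩
        · exact ⟨rfl, congrArg Sum.inl h2⟩)
      (by
        rintro ⟨e, c⟩
        show J (τ e) / 2 = J e / 2
        rw [hJτ])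
      (by
        intro y
        obtain ⟨z, hz⟩ := hl y
        exact ⟨z, congrArg Sum.inl hz⟩)
      (by
        intro y
        obtain ⟨z, hz⟩ := hr y
        exact ⟨z, congrArg Sum.inl hz⟩)
      (Sum.inl v0) w hw (fun x => η x.1) ζ
      (by
        intro h
        rw [← hη (fun v => h (Sum.inl v))]
        congr 1
        rw [Fintype.sum_prod_type]
        refine Finset.sum_congr rfl fun e _ => ?_
        rw [Fintype.sum_bool]
        show η e * ((h (Sum.inl (t e)) - h (Sum.inr e) : ℤ) : ℝ) +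
          η e * ((h (Sum.inr e) - h (Sum.inl (s e)) : ℤ) : ℝ) =
          η e * ((h (Sum.inl (t e)) - h (Sum.inl (s e)) : ℤ) : ℝ)
        push_cast
        ring)
    rw [Z0_dbl hJ, Z1_dbl hJ ha, Z1_dbl hJ hb, Z2_dbl hJ ha hb, sum_J2_sq] at h
    have e1 : ∑ x : E × Bool, J2 J x * η x.1 ^ 2 = ∑ e, J e * η e ^ 2 := by
      rw [Fintype.sum_prod_type]
      refine Finset.sum_congr rfl fun e _ => ?_
      rw [Fintype.sum_bool]
      show J e / 2 * η e ^ 2 + J e / 2 * η e ^ 2 = _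
      ring
    rw [e1] at h
    have e2 : (∑ e, J e ^ 2) / 2 / 8 / 2 ^ k = (∑ e, J e ^ 2) / 8 / 2 ^ (k + 1) := by
      rw [pow_succ]
      field_simp
    rwa [e2] at h

/-- **Bound of the quotient of partition functions**, for every finite graph with the crossing
property and a symmetry which exchanges the two pairs of sides:
`Z_LL Z_RR ≤ 2 (1 + 4 Q) Z_RL Z_LR`. -/
theorem rho_two {V E A B A' B' : Type} [Fintype V] [Fintype E] [Fintype A]
    [Fintype B] {s t : E → V} {l : A → V} {r : B → V} {l' : A' → V} {r' : B' → V}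
    (hc : Conn s t) (hA : Nonempty A) (hB : Nonempty B) (hA' : Nonempty A') (hB' : Nonempty B')
    {J : E → ℝ} {a : A → ℝ} {b : B → ℝ} (hJ : ∀ e, 0 ≤ J e) (ha : ∀ y, 0 ≤ a y)
    (hb : ∀ y, 0 ≤ b y)
    (hX : Cross (adjG s t) (Set.range l) (Set.range r) (Set.range l') (Set.range r'))
    {σ : V ≃ V} {τ : E ≃ E} (hτ : ∀ e, s (τ e) = σ (s e) ∧ t (τ e) = σ (t e))
    (hJτ : ∀ e, J (τ e) = J e) (hl : ∀ y, σ (l y) ∈ Set.range l')
    (hr : ∀ y, σ (r y) ∈ Set.range r')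
    (v0 : V) (w : A → ℝ) (hw : ∑ y, w y = 1) (η : E → ℝ) (ζ : B → ℝ)
    (hη : ∀ h : V → ℤ, ∑ e, η e * ((h (t e) - h (s e) : ℤ) : ℝ) +
      ∑ y, ζ y * (h (r y) : ℝ) = ∑ y, w y * (h (l y) : ℝ)) :
    Z0 s t J v0 * Z2 s t J l a r b ≤
      2 * (1 + 4 * (∑ e, J e * η e ^ 2 + ∑ y, b y * ζ y ^ 2)) * Z1 s t J l a * Z1 s t J r b := by
  have h1 := fun k => rho_pow k (l := l) (r := r) (l' := l') (r' := r') hc hA hB hA' hB' hJ ha hb
    hX hτ hJτ hl hr v0 w hw η ζ hη
  have h2 : Tendsto (fun k : ℕ => (1 / 2 - (∑ e, J e ^ 2) / 8 / 2 ^ k) * Z0 s t J v0 *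
      Z2 s t J l a r b) atTop (𝓝 ((1 / 2 - 0) * Z0 s t J v0 * Z2 s t J l a r b)) := by
    refine ((tendsto_const_nhds.sub ?_).mul_const _).mul_const _
    exact Tendsto.div_atTop tendsto_const_nhds
      (tendsto_pow_atTop_atTop_of_one_lt (by norm_num : (1 : ℝ) < 2))
  have h3 := le_of_tendsto h2 (Eventually.of_forall h1)
  linarith

end Main

end Vale.Agent.P159.R2.H729
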