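import Vale.Agent.P159.R2.H729.Unit

/-!
# A separating level set exists with probability at least one half

`s t : E → V` is a finite connected graph with four sides `l r l' r'`, `J` nonnegative couplings. If chains
from `l` to `r` meet chains from `l'` to `r'`, and an automorphism of the weighted graph takes
`(l, r)` to `(l', r')`, then the weight of the heights with a level set separating `l` from `r` is at
least `1 / 2 - (∑ e, J e ^ 2) / 8` times the total weight.
-/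

open Filter Topology

namespace Vale.Agent.P159.R2.H729

open Vale.Agent.P159 Vale.Agent.P159.H353 Vale.Agent.P159.T1.H934

section Anchor

variable {V E : Type} {s t : E → V}

/-- change of the anchor -/
def anc2 (v0 v1 : V) : {h : V → ℤ // h v0 = 0} ≃ {h : V → ℤ // h v1 = 0} where
  toFun h := ⟨fun v => h.1 v - h.1 v1, sub_self _⟩
  invFun h := ⟨fun v => h.1 v - h.1 v0, sub_self _⟩
  left_inv h := by
    apply Subtype.ext
    funext v
    show h.1 v - h.1 v1 - (h.1 v0 - h.1 v1) = h.1 v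
    rw [h.2]
    ring
  right_inv h := by
    apply Subtype.ext
    funext v
    show h.1 v - h.1 v0 - (h.1 v1 - h.1 v0) = h.1 v
    rw [h.2]
    ring

theorem anchor {F : (V → ℤ) → ℝ} (hF : ∀ h c, F (fun v => h v - c) = F h) (v0 v1 : V) :
    ∑' h : {h : V → ℤ // h v0 = 0}, F h.1 = ∑' h : {h : V → ℤ // h v1 = 0}, F h.1 := by
  rw [← (anc2 v0 v1).tsum_eq]
  exact tsum_congr fun h => (hF h.1 (h.1 v1)).symm

/-- composition with a permutation of the vertices -/
def ancσ (σ : V ≃ V) (v0 : V) : {h : V → ℤ // h (σ v0) = 0} ≃ {h : V → ℤ // h v0 = 0} where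
  toFun h := ⟨fun v => h.1 (σ v), h.2⟩
  invFun h := ⟨fun v => h.1 (σ.symm v), by
    show h.1 (σ.symm (σ v0)) = 0
    rw [σ.symm_apply_apply]
    exact h.2⟩
  left_inv h := by
    apply Subtype.ext
    funext v
    show h.1 (σ (σ.symm v)) = h.1 v
    rw [σ.apply_symm_apply]
  right_inv h := by
    apply Subtype.ext
    funext v
    show h.1 (σ.symm (σ v)) = h.1 v
    rw [σ.symm_apply_apply]

end Anchor

section Aut

variable {V E : Type} [Fintype E] {s t : E → V} {σ : V ≃ V} {τ : E ≃ E}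

theorem W_aut (hστ : ∀ e, (s (τ e) = σ (s e) ∧ t (τ e) = σ (t e)) ∨
      (s (τ e) = σ (t e) ∧ t (τ e) = σ (s e))) {J : E → ℝ} (hJτ : ∀ e, J (τ e) = J e)
    (h : V → ℤ) : W (grd s t) J (fun v => h (σ v)) = W (grd s t) J h := by
  unfold W
  rw [← τ.prod_comp (fun e => wI (J e) (grd s t h e))]
  refine Finset.prod_congr rfl fun e _ => ?_
  rw [hJτ]
  show wI (J e) (h (σ (t e)) - h (σ (s e))) = wI (J e) (h (t (τ e)) - h (s (τ e)))
  rcases hστ e with ⟨h1, h2⟩ | ⟨h1, h2⟩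
  · rw [h1, h2]
  · rw [h1, h2, ← wI_neg]
    congr 1
    ring

omit [Fintype E] in
theorem adj_aut (hστ : ∀ e, (s (τ e) = σ (s e) ∧ t (τ e) = σ (t e)) ∨
      (s (τ e) = σ (t e) ∧ t (τ e) = σ (s e))) {a b : V} (h : adjG s t a b) :
    adjG s t (σ a) (σ b) := by
  obtain ⟨e, he⟩ := h
  refine ⟨τ e, ?_⟩
  rcases he with ⟨rfl, rfl⟩ | ⟨rfl, rfl⟩ <;> rcases hστ e with ⟨h1, h2⟩ | ⟨h1, h2⟩ <;> simp [h1, h2]

omit [Fintype E] in
theorem Cn_map {adj : V → V → Prop} {f : V → V} (hf : ∀ a b, adj a b → adj (f a) (f b))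
    {S X Y S' X' Y' : Set V} (hS : ∀ v ∈ S, f v ∈ S') (hX : ∀ v ∈ X, f v ∈ X')
    (hY : ∀ v ∈ Y, f v ∈ Y') (h : Cn adj S X Y) : Cn adj S' X' Y' := by
  obtain ⟨x, hx, y, hy, h1⟩ := h
  refine ⟨f x, ⟨hS _ hx.1, hX _ hx.2⟩, f y, ⟨hS _ hy.1, hY _ hy.2⟩, ?_⟩
  exact Relation.ReflTransGen.lift (p := fun a b => adj a b ∧ a ∈ S' ∧ b ∈ S') f
    (fun a b hab => ⟨hf _ _ hab.1, hS _ hab.2.1, hS _ hab.2.2⟩) x y h1

omit [Fintype E] in
/-- if `σ` takes `(l, r)` into `(l', r')` a separating level of `h` is one of `h ∘ σ` -/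
theorem Sp_aut {A B A' B' : Type} {l : A → V} {r : B → V} {l' : A' → V} {r' : B' → V}
    (hστ : ∀ e, (s (τ e) = σ (s e) ∧ t (τ e) = σ (t e)) ∨
      (s (τ e) = σ (t e) ∧ t (τ e) = σ (s e)))
    (hl : ∀ a, σ (l a) ∈ Set.range l') (hr : ∀ b, σ (r b) ∈ Set.range r')
    {k : ℤ} {h : V → ℤ} (hS : Sp s t l' r' k h) : Sp s t l r k (fun v => h (σ v)) := by
  intro hC
  apply hS
  refine Cn_map (f := σ) (fun a b hab => adj_aut hστ hab) (fun v hv => hv) ?_ ?_ hC
  · rintro _ ⟨a, rfl⟩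
    exact hl a
  · rintro _ ⟨b, rfl⟩
    exact hr b

end Aut

section Half

variable {V E A B A' B' : Type} [Fintype V] [Fintype E] {s t : E → V}
  {l : A → V} {r : B → V} {l' : A' → V} {r' : B' → V}

open Classical in
/-- the weight of the heights with a level set which separates the left from the right -/
noncomputable def ZS (s t : E → V) (J : E → ℝ) (l : A → V) (r : B → V) (v0 : V) : ℝ :=
  ∑' h : {h : V → ℤ // h v0 = 0}, (if ∃ k, Sp s t l r k h.1 then W (grd s t) J h.1 else 0)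

omit [Fintype V] in
theorem sum_ind (hc : Conn s t) {J : E → ℝ} (hJ : ∀ e, 0 ≤ J e) (v0 : V)
    (p : (V → ℤ) → Prop) [DecidablePred p] :
    Summable fun h : {h : V → ℤ // h v0 = 0} => (if p h.1 then W (grd s t) J h.1 else 0) := by
  refine Summable.of_nonneg_of_le (fun h => ?_) (fun h => ?_) (summable_anc hc hJ v0)
  · split_ifs
    · exact W_nonneg hJ _
    · exact le_rfl
  · split_ifs
    · exact le_rfl
    · exact W_nonneg hJ _

/-- **Crossing alternative**: one of the two pairs of sides is separated by a level set, with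
probability at least `1 - (∑ e, J e ^ 2) / 4` -/
theorem sum_two_ge (hc : Conn s t) {J : E → ℝ} (hJ : ∀ e, 0 ≤ J e) (hA : Nonempty A)
    (hB : Nonempty B) (hA' : Nonempty A') (hB' : Nonempty B')
    (hX : Cross (adjG s t) (Set.range l) (Set.range r) (Set.range l') (Set.range r')) (v0 : V) :
    (1 - ∑ e, J e ^ 2 / 4) * ∑' h : {h : V → ℤ // h v0 = 0}, W (grd s t) J h.1 ≤
      ZS s t J l r v0 + ZS s t J l' r' v0 := by
  classical
  have h1 := two_le_heights hc hJ v0
  have s0 := summable_anc hc hJ v0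
  have s1 := sum_ind hc hJ v0 (fun h => ∃ k, Sp s t l r k h)
  have s2 := sum_ind hc hJ v0 (fun h => ∃ k, Sp s t l' r' k h)
  have s3 := sum_ind hc hJ v0 (fun h => ∃ e, 2 ≤ |h (t e) - h (s e)|)
  have hne : ∀ {X Y : Set V}, X.Nonempty → Y.Nonempty → Cn (adjG s t) Set.univ X Y := by
    rintro X Y ⟨x, hx⟩ ⟨y, hy⟩
    refine ⟨x, ⟨trivial, hx⟩, y, ⟨trivial, hy⟩, ?_⟩
    exact Relation.ReflTransGen.mono
      (p := fun a b => adjG s t a b ∧ a ∈ (Set.univ : Set V) ∧ b ∈ (Set.univ : Set V))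
      (fun _ _ hab => ⟨hab, trivial, trivial⟩) x y (hc x y)
  have hpt : ∀ h : {h : V → ℤ // h v0 = 0}, W (grd s t) J h.1 ≤
      (if ∃ k, Sp s t l r k h.1 then W (grd s t) J h.1 else 0) +
      (if ∃ k, Sp s t l' r' k h.1 then W (grd s t) J h.1 else 0) +
      (if ∃ e, 2 ≤ |h.1 (t e) - h.1 (s e)| then W (grd s t) J h.1 else 0) := by
    intro h
    have hW : 0 ≤ W (grd s t) J h.1 := W_nonneg hJ _
    by_cases h2 : ∃ e, 2 ≤ |h.1 (t e) - h.1 (s e)|
    · rw [if_pos h2]
      have : 0 ≤ (if ∃ k, Sp s t l r k h.1 then W (grd s t) J h.1 else 0) := by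
        split_ifs <;> simp [hW]
      have : 0 ≤ (if ∃ k, Sp s t l' r' k h.1 then W (grd s t) J h.1 else 0) := by
        split_ifs <;> simp [hW]
      linarith
    · rw [if_neg h2, add_zero]
      push Not at h2
      have hu : ∀ a b, adjG s t a b → |h.1 a - h.1 b| ≤ 1 := by
        rintro a b ⟨e, ⟨rfl, rfl⟩ | ⟨rfl, rfl⟩⟩
        · rw [abs_sub_comm]
          have := h2 e
          omega
        · have := h2 e
          omega
      by_cases hb : Bad (adjG s t) (Set.range l) (Set.range r) h.1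
      · have hb' : ¬ Bad (adjG s t) (Set.range l') (Set.range r') h.1 :=
          fun hb' => not_bad_bad hX hb hb'
        obtain ⟨k, -, hk⟩ := exists_sep hu (hne (Set.range_nonempty l') (Set.range_nonempty r')) hb'
        have h3 : ∃ k, Sp s t l' r' k h.1 := ⟨k, hk⟩
        rw [if_pos h3]
        have : 0 ≤ (if ∃ k, Sp s t l r k h.1 then W (grd s t) J h.1 else 0) := by
          split_ifs <;> simp [hW]
        linarith
      · obtain ⟨k, -, hk⟩ := exists_sep hu (hne (Set.range_nonempty l) (Set.range_nonempty r)) hb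
        have h3 : ∃ k, Sp s t l r k h.1 := ⟨k, hk⟩
        rw [if_pos h3]
        have : 0 ≤ (if ∃ k, Sp s t l' r' k h.1 then W (grd s t) J h.1 else 0) := by
          split_ifs <;> simp [hW]
        linarith
  have h4 := s0.tsum_le_tsum hpt ((s1.add s2).add s3)
  rw [(s1.add s2).tsum_add s3, s1.tsum_add s2] at h4
  unfold ZS
  linarith

omit [Fintype V] in
/-- the two events of the crossing alternative have the same probability -/
theorem ZS_aut (hc : Conn s t) {J : E → ℝ} (hJ : ∀ e, 0 ≤ J e) {σ : V ≃ V} {τ : E ≃ E}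
    (hστ : ∀ e, (s (τ e) = σ (s e) ∧ t (τ e) = σ (t e)) ∨
      (s (τ e) = σ (t e) ∧ t (τ e) = σ (s e))) (hJτ : ∀ e, J (τ e) = J e)
    (hl : ∀ a, σ (l a) ∈ Set.range l') (hr : ∀ b, σ (r b) ∈ Set.range r') (v0 : V) :
    ZS s t J l' r' v0 ≤ ZS s t J l r v0 := by
  classical
  have e1 : ZS s t J l' r' v0 = ZS s t J l' r' (σ v0) := by
    unfold ZS
    refine anchor (F := fun h => if ∃ k, Sp s t l' r' k h then W (grd s t) J h else 0)
      (fun h c => ?_) v0 (σ v0)
    simp only [W_shift]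
    refine if_congr ?_ rfl rfl
    have hs : ∀ (h : V → ℤ) (c k : ℤ), Sp s t l' r' k (fun v => h v - c) ↔
        Sp s t l' r' (k + c) h := by
      intro h c k
      unfold Sp
      have : {v | h v - c ≠ k} = {v | h v ≠ k + c} := by
        ext v
        simp only [Set.mem_ofPred_eq, ne_eq]
        constructor <;> intro h1 h2 <;> apply h1 <;> omega
      rw [this]
    constructor
    · rintro ⟨k, hk⟩
      exact ⟨k + c, (hs h c k).1 hk⟩
    · rintro ⟨k, hk⟩
      refine ⟨k - c, (hs h c (k - c)).2 ?_⟩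
      rwa [sub_add_cancel]
  rw [e1]
  unfold ZS
  rw [← (ancσ σ v0).tsum_eq (fun h : {h : V → ℤ // h v0 = 0} =>
    (if ∃ k, Sp s t l r k h.1 then W (grd s t) J h.1 else 0))]
  refine Summable.tsum_le_tsum (fun h => ?_)
    (sum_ind hc hJ (σ v0) (fun h => ∃ k, Sp s t l' r' k h))
    ((ancσ σ v0).summable_iff.2 (sum_ind hc hJ v0 (fun h => ∃ k, Sp s t l r k h)))
  show _ ≤ (if ∃ k, Sp s t l r k (fun v => h.1 (σ v)) then
    W (grd s t) J (fun v => h.1 (σ v)) else 0)
  rw [W_aut hστ hJτ]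
  by_cases h1 : ∃ k, Sp s t l' r' k h.1
  · obtain ⟨k, hk⟩ := h1
    rw [if_pos ⟨k, hk⟩, if_pos ⟨k, Sp_aut hστ hl hr hk⟩]
  · rw [if_neg h1]
    split_ifs
    · exact W_nonneg hJ _
    · exact le_rfl

/-- **A separating level set exists with probability at least `1 / 2 - (∑ e, J e ^ 2) / 8`.** -/
theorem half_le (hc : Conn s t) {J : E → ℝ} (hJ : ∀ e, 0 ≤ J e) (hA : Nonempty A)
    (hB : Nonempty B) (hA' : Nonempty A') (hB' : Nonempty B')
    (hX : Cross (adjG s t) (Set.range l) (Set.range r) (Set.range l') (Set.range r'))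
    {σ : V ≃ V} {τ : E ≃ E}
    (hστ : ∀ e, (s (τ e) = σ (s e) ∧ t (τ e) = σ (t e)) ∨
      (s (τ e) = σ (t e) ∧ t (τ e) = σ (s e))) (hJτ : ∀ e, J (τ e) = J e)
    (hl : ∀ a, σ (l a) ∈ Set.range l') (hr : ∀ b, σ (r b) ∈ Set.range r') (v0 : V) :
    (1 / 2 - (∑ e, J e ^ 2) / 8) * ∑' h : {h : V → ℤ // h v0 = 0}, W (grd s t) J h.1 ≤
      ZS s t J l r v0 := by
  have h1 := sum_two_ge (l := l) (r := r) (l' := l') (r' := r') hc hJ hA hB hA' hB' hX v0
  have h2 := ZS_aut (l := l) (r := r) (l' := l') (r' := r') hc hJ hστ hJτ hl hr v0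
  have h3 : ∑ e, J e ^ 2 / 4 = (∑ e, J e ^ 2) / 4 := by rw [Finset.sum_div]
  rw [h3] at h1
  nlinarith [h1, h2]

end Half

end Vale.Agent.P159.R2.H729
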