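import Vale.Agent.P159.R2.H729.Dbl

/-!
# The square of faces

`V = Fin (n + 1) × Fin (n + 1)`, nearest neighbours, constant coupling `b`; left and right outer faces
with the coupling `b`. `rho_sq` : `Z_LL Z_RR ≤ 2 (1 + 4 b) Z_RL Z_LR` for every `n`.
-/

open Filter Topology

namespace Vale.Agent.P159.R2.H729

open Vale.Agent.P159 Vale.Agent.P159.H353 Vale.Agent.P159.T1.H934

/-- faces of the square -/
abbrev SqV (n : ℕ) : Type := Fin (n + 1) × Fin (n + 1)

/-- horizontal and vertical neighbours -/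
abbrev SqE (n : ℕ) : Type := (Fin n × Fin (n + 1)) ⊕ (Fin (n + 1) × Fin n)

/-- source -/
def sqs (n : ℕ) : SqE n → SqV n :=
  Sum.elim (fun p => (p.1.castSucc, p.2)) (fun p => (p.1, p.2.castSucc))

/-- target -/
def sqt (n : ℕ) : SqE n → SqV n :=
  Sum.elim (fun p => (p.1.succ, p.2)) (fun p => (p.1, p.2.succ))

/-- left column -/
def sql (n : ℕ) (y : Fin (n + 1)) : SqV n := (0, y)

/-- right column -/
def sqr (n : ℕ) (y : Fin (n + 1)) : SqV n := (Fin.last n, y)

/-- bottom row -/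
def sqb (n : ℕ) (y : Fin (n + 1)) : SqV n := (y, 0)

/-- top row -/
def squ (n : ℕ) (y : Fin (n + 1)) : SqV n := (y, Fin.last n)

/-- transposition of the edges -/
def sqτ (n : ℕ) : SqE n ≃ SqE n where
  toFun := Sum.elim (fun p => Sum.inr (p.2, p.1)) (fun p => Sum.inl (p.2, p.1))
  invFun := Sum.elim (fun p => Sum.inr (p.2, p.1)) (fun p => Sum.inl (p.2, p.1))
  left_inv := by rintro (p | p) <;> rfl
  right_inv := by rintro (p | p) <;> rfl

theorem row_adj (n : ℕ) (y : Fin (n + 1)) : ∀ (a : ℕ) (ha : a < n + 1),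
    Relation.ReflTransGen (adjG (sqs n) (sqt n)) ((0 : Fin (n + 1)), y) (⟨a, ha⟩, y) := by
  intro a
  induction a with
  | zero => intro ha; exact .refl
  | succ a ih =>
    intro ha
    refine (ih (by omega)).tail ⟨Sum.inl (⟨a, by omega⟩, y), Or.inl ⟨rfl, rfl⟩⟩

theorem col_adj (n : ℕ) (x : Fin (n + 1)) : ∀ (a : ℕ) (ha : a < n + 1),
    Relation.ReflTransGen (adjG (sqs n) (sqt n)) (x, (0 : Fin (n + 1))) (x, ⟨a, ha⟩) := by
  intro a
  induction a with
  | zero => intro ha; exact .refl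
  | succ a ih =>
    intro ha
    refine (ih (by omega)).tail ⟨Sum.inr (x, ⟨a, by omega⟩), Or.inl ⟨rfl, rfl⟩⟩

theorem rtg_symm {V E : Type} {s t : E → V} {a b : V}
    (h : Relation.ReflTransGen (adjG s t) a b) : Relation.ReflTransGen (adjG s t) b a := by
  induction h with
  | refl => exact .refl
  | tail _ h1 ih => exact Relation.ReflTransGen.head (adjG_symm h1) ih

theorem sq_conn (n : ℕ) : Conn (sqs n) (sqt n) := by
  have h0 : ∀ v : SqV n, Relation.ReflTransGen (adjG (sqs n) (sqt n)) (0, 0) v := by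
    rintro ⟨x, y⟩
    exact (row_adj n 0 x x.2).trans (col_adj n x y y.2)
  intro u v
  exact (rtg_symm (h0 u)).trans (h0 v)

theorem adj4_of_sq {n : ℕ} {a b : SqV n} (h : adjG (sqs n) (sqt n) a b) : adj4 a b := by
  have key : ∀ e : SqE n, adj4 (sqs n e) (sqt n e) ∧ adj4 (sqt n e) (sqs n e) := by
    rintro (⟨i, j⟩ | ⟨i, j⟩) <;> constructor <;> simp [adj4, sqs, sqt]
  obtain ⟨e, ⟨rfl, rfl⟩ | ⟨rfl, rfl⟩⟩ := h
  · exact (key e).1
  · exact (key e).2

theorem Cn.mono_adj {V : Type*} {adj adj' : V → V → Prop} {S X Y : Set V}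
    (h : ∀ a b, adj a b → adj' a b) (hC : Cn adj S X Y) : Cn adj' S X Y := by
  obtain ⟨x, hx, y, hy, h1⟩ := hC
  exact ⟨x, hx, y, hy, Relation.ReflTransGen.mono
    (p := fun a b => adj' a b ∧ a ∈ S ∧ b ∈ S) (fun _ _ hab => ⟨h _ _ hab.1, hab.2⟩) x y h1⟩

theorem sq_cross (n : ℕ) : Cross (adjG (sqs n) (sqt n)) (Set.range (sql n)) (Set.range (sqr n))
    (Set.range (sqb n)) (Set.range (squ n)) := by
  have e1 : Set.range (sql n) = P198.PlanarTop.lft := by
    ext ⟨x, y⟩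
    constructor
    · rintro ⟨z, hz⟩
      obtain ⟨rfl, rfl⟩ := Prod.mk.inj hz
      exact rfl
    · intro h
      exact ⟨y, Prod.ext (Fin.ext (show (x : ℕ) = 0 from h).symm) rfl⟩
  have e2 : Set.range (sqr n) = P198.PlanarTop.rgt := by
    ext ⟨x, y⟩
    constructor
    · rintro ⟨z, hz⟩
      obtain ⟨rfl, rfl⟩ := Prod.mk.inj hz
      exact rfl
    · intro h
      have h1 : (x : ℕ) + 1 = n + 1 := h
      exact ⟨y, Prod.ext (Fin.ext (show n = (x : ℕ) by omega)) rfl⟩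
  have e3 : Set.range (sqb n) = P198.PlanarTop.bot := by
    ext ⟨x, y⟩
    constructor
    · rintro ⟨z, hz⟩
      obtain ⟨rfl, rfl⟩ := Prod.mk.inj hz
      exact rfl
    · intro h
      exact ⟨x, Prod.ext rfl (Fin.ext (show (y : ℕ) = 0 from h).symm)⟩
  have e4 : Set.range (squ n) = P198.PlanarTop.top' := by
    ext ⟨x, y⟩
    constructor
    · rintro ⟨z, hz⟩
      obtain ⟨rfl, rfl⟩ := Prod.mk.inj hz
      exact rfl
    · intro h
      have h1 : (y : ℕ) + 1 = n + 1 := h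
      exact ⟨x, Prod.ext rfl (Fin.ext (show n = (y : ℕ) by omega))⟩
  rw [e1, e2, e3, e4]
  intro S S' h1 h2
  exact cross4 (n + 1) (n + 1) S S' (h1.mono_adj fun _ _ => adj4_of_sq)
    (h2.mono_adj fun _ _ => adj4_of_sq)

theorem sum_tel {n : ℕ} (f : Fin (n + 1) → ℝ) :
    ∑ i : Fin n, (f i.succ - f i.castSucc) = f (Fin.last n) - f 0 := by
  have h1 := Fin.sum_univ_succ f
  have h2 := Fin.sum_univ_castSucc f
  rw [Finset.sum_sub_distrib]
  linarith

/-- **Tightness of the quotient for the square**, uniformly in the size. -/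
theorem rho_sq (n : ℕ) {b : ℝ} (hb : 0 ≤ b) (v0 : SqV n) :
    Z0 (sqs n) (sqt n) (fun _ => b) v0 *
        Z2 (sqs n) (sqt n) (fun _ => b) (sql n) (fun _ => b) (sqr n) (fun _ => b) ≤
      2 * (1 + 4 * b) * Z1 (sqs n) (sqt n) (fun _ => b) (sql n) (fun _ => b) *
        Z1 (sqs n) (sqt n) (fun _ => b) (sqr n) (fun _ => b) := by
  have hn : (0 : ℝ) < (n : ℝ) + 1 := by positivity
  have h := rho_two (s := sqs n) (t := sqt n) (l := sql n) (r := sqr n) (l' := sqb n)
    (r' := squ n) (sq_conn n) ⟨0⟩ ⟨0⟩ ⟨0⟩ ⟨0⟩ (J := fun _ => b) (a := fun _ => b) (b := fun _ => b)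
    (fun _ => hb) (fun _ => hb) (fun _ => hb) (sq_cross n) (σ := Equiv.prodComm _ _) (τ := sqτ n)
    (by rintro (e | e) <;> exact ⟨rfl, rfl⟩) (fun _ => rfl) (fun y => ⟨y, rfl⟩) (fun y => ⟨y, rfl⟩)
    v0 (fun _ => 1 / ((n : ℝ) + 1)) (by
      rw [Finset.sum_const, Finset.card_univ, Fintype.card_fin, nsmul_eq_mul]
      push_cast
      field_simp)
    (Sum.elim (fun _ => -(1 / ((n : ℝ) + 1))) (fun _ => 0)) (fun _ => 1 / ((n : ℝ) + 1)) (by
      intro h
      rw [Fintype.sum_sum_type, Fintype.sum_prod_type_right]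
      have e1 : ∀ y : Fin (n + 1), ∑ x : Fin n, -(1 / ((n : ℝ) + 1)) *
          ((h (x.succ, y) - h (x.castSucc, y) : ℤ) : ℝ) =
          -(1 / ((n : ℝ) + 1)) * ((h (Fin.last n, y) : ℝ) - h (0, y)) := by
        intro y
        rw [← Finset.mul_sum, ← sum_tel (fun x => (h (x, y) : ℝ))]
        congr 1
        exact Finset.sum_congr rfl fun x _ => by push_cast; ring
      have e2 : ∑ y : Fin (n + 1), ∑ x : Fin n, (Sum.elim (fun _ => -(1 / ((n : ℝ) + 1)))
          (fun _ => (0 : ℝ)) (Sum.inl (x, y) : SqE n)) *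
          ((h (sqt n (Sum.inl (x, y))) - h (sqs n (Sum.inl (x, y))) : ℤ) : ℝ) =
          ∑ y : Fin (n + 1), -(1 / ((n : ℝ) + 1)) * ((h (Fin.last n, y) : ℝ) - h (0, y)) :=
        Finset.sum_congr rfl fun y _ => e1 y
      rw [e2]
      simp only [Sum.elim_inr, zero_mul, Finset.sum_const_zero, add_zero]
      rw [← Finset.sum_add_distrib]
      refine Finset.sum_congr rfl fun y _ => ?_
      show -(1 / ((n : ℝ) + 1)) * ((h (Fin.last n, y) : ℝ) - h (0, y)) +
        1 / ((n : ℝ) + 1) * (h (Fin.last n, y) : ℝ) = 1 / ((n : ℝ) + 1) * (h (0, y) : ℝ)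
      ring)
  refine h.trans (le_of_eq ?_)
  congr 4
  rw [Fintype.sum_sum_type]
  simp only [Sum.elim_inl, Sum.elim_inr, Finset.sum_const, Finset.card_univ, Fintype.card_prod,
    Fintype.card_fin, nsmul_eq_mul]
  push_cast
  field_simp
  ring

end Vale.Agent.P159.R2.H729
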