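import Vale.Agent.P159.T1.H934.Rho

/-!
# Large steps of the integer heights are rare

`s t : E → V` is a finite connected graph, `J` nonnegative couplings. The weight of the heights
`h : V → ℤ`, `h v0 = 0`, with `2 ≤ |h (t e) - h (s e)|` for some `e` is at most
`(∑ e, J e ^ 2) / 4` times the total weight.
-/

open Filter Topology

namespace Vale.Agent.P159.R2.H729

open Vale.Agent.P159 Vale.Agent.P159.H353 Vale.Agent.P159.T1.H934

/-- `I_n(b) ≤ (b ^ 2 / 8) I_{n-2}(b)` for `n ≥ 2` -/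
theorem wI_two_aux {b : ℝ} (hb : 0 ≤ b) {n : ℤ} (hn : 2 ≤ n) :
    wI b n ≤ b ^ 2 / 8 * wI b (n - 2) := by
  have r0 := T1.H532.wI_rec hb n
  have r1 := T1.H532.wI_rec hb (n - 1)
  rw [show n - 1 - 1 = n - 2 by ring, show n - 1 + 1 = n by ring] at r1
  have p0 := wI_nonneg hb n
  have p1 := wI_nonneg hb (n - 1)
  have p2 := wI_nonneg hb (n - 2)
  have p3 := wI_nonneg hb (n + 1)
  have hn' : (2 : ℝ) ≤ n := by exact_mod_cast hn
  push_cast at r1
  have a0 : 2 * wI b n ≤ b / 2 * wI b (n - 1) := by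
    nlinarith [mul_nonneg hb p3, mul_nonneg (sub_nonneg.2 hn') p0]
  have a1 : wI b (n - 1) ≤ b / 2 * wI b (n - 2) := by
    nlinarith [mul_nonneg hb p0, mul_nonneg (sub_nonneg.2 hn') p1]
  nlinarith [mul_le_mul_of_nonneg_left a1 hb]

theorem wI_two {b : ℝ} (hb : 0 ≤ b) {n : ℤ} (hn : 2 ≤ |n|) :
    wI b n ≤ b ^ 2 / 8 * (wI b (n - 2) + wI b (n + 2)) := by
  have hb2 : 0 ≤ b ^ 2 / 8 := by positivity
  rcases le_abs.1 hn with h | h
  · have h1 := wI_two_aux hb h
    have h2 := mul_nonneg hb2 (wI_nonneg hb (n + 2))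
    linarith
  · have h1 := wI_two_aux hb h
    rw [wI_neg, show -n - 2 = -(n + 2) by ring, wI_neg] at h1
    have h2 := mul_nonneg hb2 (wI_nonneg hb (n - 2))
    linarith

section Prod

variable {E : Type} [Fintype E] [DecidableEq E]

theorem Gw_two {J : E → ℝ} (hJ : ∀ e, 0 ≤ J e) (n : E → ℤ) {e : E} (he : 2 ≤ |n e|) :
    T1.H532.Gw J n ≤ J e ^ 2 / 8 * (T1.H532.Gw J (n + (-(T1.H532.dl e + T1.H532.dl e))) +
      T1.H532.Gw J (n + (T1.H532.dl e + T1.H532.dl e))) := by
  have hp : ∀ m : E → ℤ, T1.H532.Gw J m =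
      wI (J e) (m e) * ∏ f ∈ Finset.univ.erase e, wI (J f) (m f) :=
    fun m => (Finset.mul_prod_erase Finset.univ (fun f => wI (J f) (m f)) (Finset.mem_univ e)).symm
  have hd : ∀ f ∈ Finset.univ.erase e, T1.H532.dl e f = 0 := fun f hf =>
    Pi.single_eq_of_ne (Finset.ne_of_mem_erase hf) 1
  have he1 : T1.H532.dl e e = 1 := by unfold T1.H532.dl; exact Pi.single_eq_same _ _
  have e1 : ∏ f ∈ Finset.univ.erase e, wI (J f) ((n + (-(T1.H532.dl e + T1.H532.dl e))) f) =
      ∏ f ∈ Finset.univ.erase e, wI (J f) (n f) := by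
    refine Finset.prod_congr rfl fun f hf => ?_
    rw [Pi.add_apply, Pi.neg_apply, Pi.add_apply, hd f hf, add_zero, neg_zero, add_zero]
  have e2 : ∏ f ∈ Finset.univ.erase e, wI (J f) ((n + (T1.H532.dl e + T1.H532.dl e)) f) =
      ∏ f ∈ Finset.univ.erase e, wI (J f) (n f) := by
    refine Finset.prod_congr rfl fun f hf => ?_
    rw [Pi.add_apply, Pi.add_apply, hd f hf, add_zero, add_zero]
  have e3 : (n + (-(T1.H532.dl e + T1.H532.dl e))) e = n e - 2 := by
    rw [Pi.add_apply, Pi.neg_apply, Pi.add_apply, he1]; ring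
  have e4 : (n + (T1.H532.dl e + T1.H532.dl e)) e = n e + 2 := by
    rw [Pi.add_apply, Pi.add_apply, he1]; ring
  rw [hp n, hp (n + (-(T1.H532.dl e + T1.H532.dl e))), hp (n + (T1.H532.dl e + T1.H532.dl e)),
    e1, e2, e3, e4]
  have h0 : 0 ≤ ∏ f ∈ Finset.univ.erase e, wI (J f) (n f) :=
    Finset.prod_nonneg fun f _ => wI_nonneg (hJ f) _
  have h1 := mul_le_mul_of_nonneg_right (wI_two (hJ e) he) h0
  refine h1.trans (le_of_eq ?_)
  ring

open Classical in
/-- **large currents are rare on every subgroup** -/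
theorem two_le_sub (Γ : AddSubgroup (E → ℤ)) {J : E → ℝ} (hJ : ∀ e, 0 ≤ J e) :
    ∑' γ : Γ, (if ∃ e, 2 ≤ |(γ : E → ℤ) e| then T1.H532.Gw J γ else 0) ≤
      (∑ e, J e ^ 2 / 4) * ∑' γ : Γ, T1.H532.Gw J γ := by
  set G := T1.H532.Gw J with hG
  set F := T1.H532.Fs Γ G with hF
  have hs := T1.H532.summable_Gw hJ
  have hH := T1.H532.hasSum_Fs Γ hs
  have hhalf : ∀ e, 0 ≤ J e / 2 := fun e => by have := hJ e; linarith
  have hs' := T1.H532.summable_Gw (J := fun e => J e / 2) hhalf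
  have hconv : ∀ n, HasSum (fun m => T1.H532.Gw (fun e => J e / 2) m *
      T1.H532.Gw (fun e => J e / 2) (n - m)) (G n) := by
    intro n
    have h := T1.H532.Gw_conv (J := fun e => J e / 2) (K := fun e => J e / 2) hhalf hhalf n
    have e1 : (fun e => J e / 2 + J e / 2) = J := by
      funext e
      ring
    rwa [e1] at h
  have hsum : HasSum (fun γ : Γ => ∑ e, J e ^ 2 / 8 *
      (G ((γ : E → ℤ) + (-(T1.H532.dl e + T1.H532.dl e))) +
        G ((γ : E → ℤ) + (T1.H532.dl e + T1.H532.dl e))))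
      (∑ e, J e ^ 2 / 8 * (F (-(T1.H532.dl e + T1.H532.dl e)) +
        F (T1.H532.dl e + T1.H532.dl e))) :=
    hasSum_sum fun e _ => ((hH _).add (hH _)).mul_left _
  have hnn : ∀ n, 0 ≤ G n := T1.H532.Gw_nonneg hJ
  have hterm : ∀ (e : E) (n : E → ℤ), 0 ≤ J e ^ 2 / 8 *
      (G (n + (-(T1.H532.dl e + T1.H532.dl e))) + G (n + (T1.H532.dl e + T1.H532.dl e))) :=
    fun e n => mul_nonneg (by positivity) (add_nonneg (hnn _) (hnn _))
  have hle : ∀ γ : Γ, (if ∃ e, 2 ≤ |(γ : E → ℤ) e| then G γ else 0) ≤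
      ∑ e, J e ^ 2 / 8 * (G ((γ : E → ℤ) + (-(T1.H532.dl e + T1.H532.dl e))) +
        G ((γ : E → ℤ) + (T1.H532.dl e + T1.H532.dl e))) := by
    intro γ
    split_ifs with h
    · obtain ⟨e, he⟩ := h
      exact (Gw_two hJ (γ : E → ℤ) he).trans
        (Finset.single_le_sum (f := fun e => J e ^ 2 / 8 *
          (G ((γ : E → ℤ) + (-(T1.H532.dl e + T1.H532.dl e))) +
            G ((γ : E → ℤ) + (T1.H532.dl e + T1.H532.dl e))))
          (fun f _ => hterm f _) (Finset.mem_univ e))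
    · exact Finset.sum_nonneg fun f _ => hterm f _
  have hind : Summable fun γ : Γ => (if ∃ e, 2 ≤ |(γ : E → ℤ) e| then G γ else 0) :=
    Summable.of_nonneg_of_le (fun γ => by split_ifs <;> simp [hnn]) hle hsum.summable
  have h1 := hind.tsum_le_tsum hle hsum.summable
  rw [hsum.tsum_eq] at h1
  refine h1.trans ?_
  have e3 : ∑' γ : Γ, G γ = F 0 := by
    rw [hF]
    unfold T1.H532.Fs
    simp only [add_zero]
  rw [e3, Finset.sum_mul]
  refine Finset.sum_le_sum fun e _ => ?_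
  have h2 := T1.H532.Fs_add_neg_le Γ hs hs' (T1.H532.Gw_neg _) hconv
    (T1.H532.dl e + T1.H532.dl e)
  have h3 : 0 ≤ J e ^ 2 / 8 := by positivity
  have h4 : F (T1.H532.dl e + T1.H532.dl e) + F (-(T1.H532.dl e + T1.H532.dl e)) ≤ 2 * F 0 := h2
  nlinarith [mul_le_mul_of_nonneg_left h4 h3]

end Prod

section Heights

variable {V E : Type} [Fintype E] {s t : E → V}

/-- heights anchored at `v0` and their gradients -/
noncomputable def ancE (hc : Conn s t) (v0 : V) :
    {h : V → ℤ // h v0 = 0} ≃ (grd s t).range :=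
  Equiv.ofBijective (fun h => ⟨grd s t h.1, ⟨h.1, rfl⟩⟩) (by
    constructor
    · intro a b hab
      have h1 : grd s t a.1 = grd s t b.1 := congrArg Subtype.val hab
      have h2 : grd s t (a.1 - b.1) = 0 := by rw [map_sub, h1, sub_self]
      apply Subtype.ext
      funext v
      have h3 := conn_const hc h2 v v0
      simp only [Pi.sub_apply, a.2, b.2, sub_self] at h3
      omega
    · rintro ⟨_, h, rfl⟩
      refine ⟨⟨fun v => h v - h v0, sub_self _⟩, ?_⟩
      apply Subtype.ext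
      exact grd_shift h (h v0))

omit [Fintype E] in
theorem ancE_apply (hc : Conn s t) (v0 : V) (h : {h : V → ℤ // h v0 = 0}) :
    ((ancE hc v0 h : (grd s t).range) : E → ℤ) = grd s t h.1 := rfl

theorem summable_anc (hc : Conn s t) {J : E → ℝ} (hJ : ∀ e, 0 ≤ J e) (v0 : V) :
    Summable fun h : {h : V → ℤ // h v0 = 0} => W (grd s t) J h.1 := by
  classical
  have h0 : Summable fun γ : (grd s t).range => T1.H532.Gw J γ :=
    (T1.H532.summable_Gw hJ).comp_injective Subtype.val_injective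
  exact ((ancE hc v0).summable_iff.2 h0).congr fun h => rfl

open Classical in
/-- **large steps of the heights are rare** -/
theorem two_le_heights (hc : Conn s t) {J : E → ℝ} (hJ : ∀ e, 0 ≤ J e) (v0 : V) :
    ∑' h : {h : V → ℤ // h v0 = 0},
      (if ∃ e, 2 ≤ |h.1 (t e) - h.1 (s e)| then W (grd s t) J h.1 else 0) ≤
      (∑ e, J e ^ 2 / 4) * ∑' h : {h : V → ℤ // h v0 = 0}, W (grd s t) J h.1 := by
  have h1 := two_le_sub (grd s t).range hJ
  rw [← (ancE hc v0).tsum_eq, ← (ancE hc v0).tsum_eq (fun γ : (grd s t).range =>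
    T1.H532.Gw J γ)] at h1
  exact h1

end Heights

end Vale.Agent.P159.R2.H729
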